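import Vale.Agent.P358F.FormulaMain

namespace Vale.Agent.Results.P358.AllParamsFormula

open Vale.Agent.P358 Vale.Agent.P358F

/-- For all parameters `(γ, ν) ∈ [0,1]²` the classical capacity of the generalized amplitude damping
channel is the maximum over `r ∈ [0,1]` of
`h₂ ((1 - γ) r + γ ν) - h₂ ((1 + sqrt (1 - 4 D r)) / 2)`, where `h₂` is the binary entropy in bits and
`D r = γ² ν (1 - ν) + γ (1 - γ) (ν (1 - r)² + (1 - ν) r²)`. It equals the one-copy Holevo capacity,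
and the Holevo capacity of the `n`-fold tensor power is exactly `n` times that of one copy. The last
three parts say that the capacities are genuine least upper bounds of the sets that define them. -/
theorem result (γ ν : ℝ) (hγ0 : 0 ≤ γ) (hγ1 : γ ≤ 1) (hν0 : 0 ≤ ν) (hν1 : ν ≤ 1) :
    IsGreatest ((fun r : ℝ => (Real.binEntropy ((1 - γ) * r + γ * ν)
        - Real.binEntropy ((1 + Real.sqrt (1 - 4 * (γ ^ 2 * ν * (1 - ν)
            + γ * (1 - γ) * (ν * (1 - r) ^ 2 + (1 - ν) * r ^ 2)))) / 2)) / Real.log 2)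
      '' Set.Icc (0 : ℝ) 1) (classicalCapacity (gadc γ ν)) ∧
    classicalCapacity (gadc γ ν) = holevoCapacity (gadc γ ν) ∧
    (∀ n : ℕ, holevoCapacity (tensorPow (gadc γ ν) n) = n * holevoCapacity (gadc γ ν)) ∧
    IsLUB {r : ℝ | ∃ (k : ℕ) (q : Fin k → ℝ) (ρ : Fin k → Matrix (Fin 2) (Fin 2) ℂ),
      IsEnsemble q ρ ∧ r = holevoQuantity (gadc γ ν) q ρ} (holevoCapacity (gadc γ ν)) ∧
    (∀ n : ℕ, IsLUB {r : ℝ | ∃ (k : ℕ) (q : Fin k → ℝ)
        (ρ : Fin k → Matrix (Fin n → Fin 2) (Fin n → Fin 2) ℂ),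
      IsEnsemble q ρ ∧ r = holevoQuantity (tensorPow (gadc γ ν) n) q ρ}
      (n * holevoCapacity (gadc γ ν))) ∧
    IsLUB {r : ℝ | ∃ n : ℕ, 1 ≤ n ∧ r = holevoCapacity (tensorPow (gadc γ ν) n) / n}
      (holevoCapacity (gadc γ ν)) :=
  ⟨by
      rw [classicalCapacity_gadc γ ν hγ0 hγ1 hν0 hν1]
      exact isGreatest_capFormula γ ν hγ0 hγ1 hν0 hν1,
    classicalCapacity_gadc γ ν hγ0 hγ1 hν0 hν1,
    holevoCapacity_tensorPow_eqG γ ν hγ0 hγ1 hν0 hν1,
    isLUB_one_copyG γ ν hγ0 hγ1 hν0 hν1,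
    isLUB_tensorPowG γ ν hγ0 hγ1 hν0 hν1,
    isLUB_regularizedG γ ν hγ0 hγ1 hν0 hν1⟩

end Vale.Agent.Results.P358.AllParamsFormula
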