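import Vale.Agent.P358.AD.Final
import Vale.Agent.P358.AD.SuperAdd
import Vale.Agent.P358.AD.Compose

namespace Vale.Agent.Results.P358.AmpDampCapacity

open Vale.Agent.P358

/-- The classical capacity of the amplitude damping channel (`ν = 0`, and `ν = 1` by symmetry)
equals its Holevo capacity, for every damping parameter; the Holevo capacity of the `n`-fold tensor
power is exactly `n` times the Holevo capacity of one copy. For all `(γ, ν)` the capacity of the
generalized amplitude damping channel is at most the Holevo capacity of the amplitude damping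
channels with parameters `γ (1 - ν)` and `γ ν`. -/
theorem result (γ : ℝ) (hγ0 : 0 ≤ γ) (hγ1 : γ ≤ 1) :
    classicalCapacity (gadc γ 0) = holevoCapacity (gadc γ 0) ∧
    (∀ n : ℕ, holevoCapacity (tensorPow (gadc γ 0) n) = n * holevoCapacity (gadc γ 0)) ∧
    classicalCapacity (gadc γ 1) = holevoCapacity (gadc γ 1) ∧
    ∀ ν : ℝ, 0 ≤ ν → ν ≤ 1 →
      classicalCapacity (gadc γ ν) ≤ holevoCapacity (gadc (γ * (1 - ν)) 0) ∧
      classicalCapacity (gadc γ ν) ≤ holevoCapacity (gadc (γ * ν) 0) :=
  ⟨classicalCapacity_ad γ hγ0 hγ1,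
    fun n => le_antisymm (holevoCapacity_tensorPow_le_ad γ hγ0 hγ1 n)
      (holevoCapacity_tensorPow_ge γ hγ0 hγ1 n),
    (gadc_consequences classicalCapacity_ad γ 0 hγ0 hγ1 le_rfl zero_le_one).1,
    fun ν hν0 hν1 => (gadc_consequences classicalCapacity_ad γ ν hγ0 hγ1 hν0 hν1).2.2⟩

end Vale.Agent.Results.P358.AmpDampCapacity
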