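import Vale.Agent.P358.GAD.FinalG
import Vale.Agent.P358.GAD.SuperAddG
import Vale.Agent.P358.AD.Compose

namespace Vale.Agent.Results.P358.GadcCapacity

open Vale.Agent.P358

/-- For all parameters `γ, ν ∈ [0, 1]` the classical capacity of the generalized amplitude damping
channel equals its one-copy Holevo capacity, and the Holevo capacity of the `n`-fold tensor power is
exactly `n` times the Holevo capacity of one copy: no ensemble of (possibly entangled) `n`-qubit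
input states has a Holevo quantity above `n χ`. The last three items record that all the suprema
involved are suprema of sets of real numbers that are bounded above. -/
theorem result (γ ν : ℝ) (hγ0 : 0 ≤ γ) (hγ1 : γ ≤ 1) (hν0 : 0 ≤ ν) (hν1 : ν ≤ 1) :
    classicalCapacity (gadc γ ν) = holevoCapacity (gadc γ ν) ∧
    (∀ n : ℕ, holevoCapacity (tensorPow (gadc γ ν) n) = n * holevoCapacity (gadc γ ν)) ∧
    (∀ (n k : ℕ) (q : Fin k → ℝ) (ρ : Fin k → Matrix (Fin n → Fin 2) (Fin n → Fin 2) ℂ),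
      IsEnsemble q ρ →
        holevoQuantity (tensorPow (gadc γ ν) n) q ρ ≤ n * holevoCapacity (gadc γ ν)) ∧
    BddAbove {r : ℝ | ∃ (k : ℕ) (q : Fin k → ℝ) (ρ : Fin k → Matrix (Fin 2) (Fin 2) ℂ),
      IsEnsemble q ρ ∧ r = holevoQuantity (gadc γ ν) q ρ} ∧
    (∀ n : ℕ, BddAbove {r : ℝ | ∃ (k : ℕ) (q : Fin k → ℝ)
      (ρ : Fin k → Matrix (Fin n → Fin 2) (Fin n → Fin 2) ℂ),
      IsEnsemble q ρ ∧ r = holevoQuantity (tensorPow (gadc γ ν) n) q ρ}) ∧
    BddAbove {r : ℝ | ∃ n : ℕ, 1 ≤ n ∧ r = holevoCapacity (tensorPow (gadc γ ν) n) / n} := by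
  have hT : ∀ n : ℕ, ∀ σ, IsState σ → IsState (tensorPow (gadc γ ν) n σ) :=
    fun n σ hσ => tensorPow_isState γ ν hγ0 hγ1 hν0 hν1 n σ hσ
  refine ⟨classicalCapacity_gadc γ ν hγ0 hγ1 hν0 hν1,
    fun n => le_antisymm (holevoCapacity_tensorPow_leG γ ν hγ0 hγ1 hν0 hν1 n)
      (holevoCapacity_tensorPow_geG γ ν hγ0 hγ1 hν0 hν1 n),
    fun n k q ρ hE => le_trans (holevoQuantity_le_capacity _ (hT n) q ρ hE)
      (holevoCapacity_tensorPow_leG γ ν hγ0 hγ1 hν0 hν1 n),
    holevoSet_bddAbove _ (fun σ hσ => gadc_isState γ ν hγ0 hγ1 hν0 hν1 σ hσ),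
    fun n => holevoSet_bddAbove _ (hT n),
    classicalSet_bddAbove γ ν hγ0 hγ1 hν0 hν1⟩

end Vale.Agent.Results.P358.GadcCapacity
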